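import Vale.Agent.P369.Final

namespace Vale.Agent.Results.P369.OnePhotonDiagonal

open Vale.Agent.P369

theorem result : ∀ (η : ℝ), 0 ≤ η → η ≤ 1 → ∀ (P Q : ℕ → ℝ),
    (∀ k, 0 ≤ P k) → (∀ k, 0 ≤ Q k) → ∑' k, P k = 1 → ∑' k, Q k = 1 →
    (∀ k, 2 ≤ k → P k = 0) → (∀ k, 2 ≤ k → Q k = 0) →
    η * photonNumber (entropy P) + (1 - η) * photonNumber (entropy Q) ≤
      photonNumber (entropy (outDist η P Q)) := by
  intro η h0 h1 P Q hP hQ hP1 hQ1 hPs hQs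
  exact epni_two_level η h0 h1 P Q hP hQ hP1 hQ1 hPs hQs

end Vale.Agent.Results.P369.OnePhotonDiagonal
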